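import Vale.Agent.P075.Core

/-!
# Dyadic triangular form with a factored input: the weighted estimate
-/

open scoped BigOperators RealInnerProductSpace
open Finset

namespace Vale.Agent.P075

variable {m : ℕ} {V : Type*} [NormedAddCommGroup V] [InnerProductSpace ℝ V]

/-- The `ℓ³` norm of a vector-valued function of the fibre variable. -/
noncomputable def Nm (φ : G m → V) : ℝ := (∑ z, ‖φ z‖ ^ 3) ^ ((1 : ℝ) / 3)

lemma rp3 (x : ℝ) : x ^ (3 : ℝ) = x ^ 3 := by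
  rw [show (3 : ℝ) = ((3 : ℕ) : ℝ) by norm_num, Real.rpow_natCast]

lemma cube_sum_nonneg (φ : G m → V) : 0 ≤ ∑ z, ‖φ z‖ ^ 3 :=
  Finset.sum_nonneg fun _ _ => by positivity

lemma Nm_nonneg (φ : G m → V) : 0 ≤ Nm φ := Real.rpow_nonneg (cube_sum_nonneg φ) _

lemma root_cube {S : ℝ} (hS : 0 ≤ S) : (S ^ ((1 : ℝ) / 3)) ^ 3 = S := by
  rw [← Real.rpow_natCast, ← Real.rpow_mul hS]
  norm_num

lemma Nm_cube (φ : G m → V) : Nm φ ^ 3 = ∑ z, ‖φ z‖ ^ 3 := root_cube (cube_sum_nonneg φ)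

lemma norm_le_Nm (φ : G m → V) (z : G m) : ‖φ z‖ ≤ Nm φ := by
  have h : ‖φ z‖ ^ 3 ≤ Nm φ ^ 3 := by
    rw [Nm_cube]
    exact Finset.single_le_sum (f := fun z => ‖φ z‖ ^ 3) (fun _ _ => by positivity) (mem_univ z)
  exact (pow_le_pow_iff_left₀ (norm_nonneg _) (Nm_nonneg φ) (by norm_num)).mp h

lemma Nm_add_le (p q : G m → V) : Nm (fun z => p z + q z) ≤ Nm p + Nm q := by
  have key := Real.Lp_add_le univ (fun z => ‖p z‖) (fun z => ‖q z‖) (p := 3) (by norm_num)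
  have h1 : ∀ z, |‖p z‖ + ‖q z‖| ^ (3 : ℝ) = (‖p z‖ + ‖q z‖) ^ 3 := fun z => by
    rw [abs_of_nonneg (by positivity), rp3]
  have h2 : ∀ f : G m → V, ∀ z, |‖f z‖| ^ (3 : ℝ) = ‖f z‖ ^ 3 := fun f z => by
    rw [abs_norm, rp3]
  simp only [h1, h2] at key
  refine le_trans (Real.rpow_le_rpow (cube_sum_nonneg _)
    (Finset.sum_le_sum fun z _ => pow_le_pow_left₀ (norm_nonneg _) (norm_add_le _ _) 3)
    (by norm_num)) key

lemma Nm_smul (c : ℝ) (φ : G m → V) : Nm (fun z => c • φ z) = |c| * Nm φ := by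
  refine (pow_left_inj₀ (Nm_nonneg _) (mul_nonneg (abs_nonneg c) (Nm_nonneg φ))
    (n := 3) (by norm_num)).mp ?_
  rw [mul_pow, Nm_cube, Nm_cube, Finset.mul_sum]
  refine Finset.sum_congr rfl fun z _ => ?_
  rw [norm_smul, mul_pow, Real.norm_eq_abs]

lemma Nm_avg (p q : G m → V) :
    Nm (fun z => (1 / 2 : ℝ) • (p z + q z)) ≤ (1 / 2) * (Nm p + Nm q) := by
  rw [Nm_smul]
  have : |(1 / 2 : ℝ)| = 1 / 2 := abs_of_pos (by norm_num)
  rw [this]
  have := Nm_add_le p q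
  linarith

lemma Nm_P (u : G m → G m → V) (k : ℕ) (y : G m) :
    Nm (fun z => P k (fun y' => u y' z) y) ≤ P k (fun y' => Nm (u y')) y := by
  induction k generalizing y with
  | zero => exact le_rfl
  | succ k ih =>
    simp only [P_succ, smul_eq_mul]
    refine (Nm_avg _ _).trans ?_
    have := ih y
    have := ih (y + dig m k)
    linarith

lemma fibre_holder (ω : G m → ℝ) (hω : ∀ z, 0 ≤ ω z) (φ : G m → V) :
    ∑ z, ω z * ‖φ z‖ ^ 2 ≤ (∑ z, ω z ^ 3) ^ ((1 : ℝ) / 3) * Nm φ ^ 2 := by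
  have hc : Real.HolderConjugate 3 (3 / 2) := by
    rw [Real.holderConjugate_iff]
    constructor <;> norm_num
  have key := Real.inner_le_Lp_mul_Lq univ ω (fun z => ‖φ z‖ ^ 2) hc
  have h1 : ∀ z, |ω z| ^ (3 : ℝ) = ω z ^ 3 := fun z => by rw [abs_of_nonneg (hω z), rp3]
  have h2 : ∀ z, |‖φ z‖ ^ 2| ^ ((3 : ℝ) / 2) = ‖φ z‖ ^ 3 := fun z => by
    rw [abs_of_nonneg (by positivity), ← Real.rpow_natCast, ← Real.rpow_mul (norm_nonneg _),
      ← Real.rpow_natCast]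
    norm_num
  simp only [h1, h2] at key
  refine key.trans (le_of_eq ?_)
  congr 1
  unfold Nm
  rw [← Real.rpow_natCast, ← Real.rpow_mul (cube_sum_nonneg φ)]
  norm_num

lemma sum_shift_left {W : Type*} [AddCommMonoid W] (φ : G m → W) (c : G m) :
    ∑ z, φ (c + z) = ∑ z, φ z :=
  Equiv.sum_comp (Equiv.addLeft c) φ

lemma weight_diff {r1 r2 r0 a b : ℝ} (h1 : 0 ≤ r1) (h12 : r1 ≤ r2) (h20 : r2 ≤ r0)
    (hb : 0 ≤ b) (hba : b ≤ a) (hab : a ^ 2 ≤ 2 * b ^ 2) :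
    r1 / b - r2 / a ≤ r0 * (b⁻¹ - a⁻¹) := by
  rcases hb.eq_or_lt with h | h
  · have ha : a = 0 := by
      have : a ^ 2 ≤ 0 := by rw [← h] at hab; simpa using hab
      nlinarith [sq_nonneg a]
    rw [← h, ha]; simp
  · have ha : 0 < a := lt_of_lt_of_le h hba
    have hinv : a⁻¹ ≤ b⁻¹ := inv_anti₀ h hba
    have : r1 / b ≤ r2 / b := div_le_div_of_nonneg_right h12 h.le
    have e : r2 / b - r2 / a = r2 * (b⁻¹ - a⁻¹) := by
      rw [div_eq_mul_inv, div_eq_mul_inv]; ring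
    have : r2 * (b⁻¹ - a⁻¹) ≤ r0 * (b⁻¹ - a⁻¹) :=
      mul_le_mul_of_nonneg_right h20 (sub_nonneg.mpr hinv)
    linarith

lemma jump_cube {a b : ℝ} (hb : 0 ≤ b) (hba : b ≤ a) (hab : a ^ 2 ≤ 2 * b ^ 2) :
    (b⁻¹ - a⁻¹) * (a ^ 2) ^ 2 ≤ a ^ 3 - b ^ 3 := by
  rcases hb.eq_or_lt with h | h
  · have ha : a = 0 := by
      have : a ^ 2 ≤ 0 := by rw [← h] at hab; simpa using hab
      nlinarith [sq_nonneg a]
    rw [← h, ha]; simp
  · have ha : 0 < a := lt_of_lt_of_le h hba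
    have e : (b⁻¹ - a⁻¹) * (a ^ 2) ^ 2 = a ^ 4 / b - a ^ 3 := by
      field_simp
    rw [e]
    have h3 : a ^ 3 ≤ a ^ 2 * b + a * b ^ 2 + b ^ 3 := by
      have h31 : a ^ 3 ≤ 2 * (a * b ^ 2) := by nlinarith
      have h32 : a * b ^ 2 ≤ a ^ 2 * b := by nlinarith [mul_pos ha h]
      nlinarith [pow_pos h 3]
    have h4 : a ^ 4 ≤ (2 * a ^ 3 - b ^ 3) * b := by
      nlinarith [mul_nonneg (sub_nonneg.mpr hba) (sub_nonneg.mpr h3)]
    have : a ^ 4 / b ≤ 2 * a ^ 3 - b ^ 3 := (div_le_iff₀ h).mpr h4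
    linarith

/-- The weighted square-function bound. -/
lemma S1_bound (u : G m → G m → V) (B : G m → ℝ) (hB : ∀ x, 0 ≤ B x) :
    ∑ z, ∑ k ∈ range m, ∑ y,
        (√(M B (k + 1) (y + z)) / √(M (fun y' => Nm (u y')) (k + 1) y))
          * ‖D k (fun y' => u y' z) y‖ ^ 2
      ≤ 2 * (∑ x, (√(M B 0 x)) ^ 3) ^ ((1 : ℝ) / 3)
          * ∑ y, (√(M (fun y' => Nm (u y')) 0 y)) ^ 3 := by
  set A : G m → ℝ := fun y' => Nm (u y') with hAdef
  have hA : ∀ y, 0 ≤ A y := fun y => Nm_nonneg _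
  set r : ℕ → G m → ℝ := fun k x => √(M B k x) with hr
  set s : ℕ → G m → ℝ := fun k y => √(M A k y) with hs
  set R : ℝ := (∑ x, r 0 x ^ 3) ^ ((1 : ℝ) / 3) with hR
  have hr0 : ∀ k x, 0 ≤ r k x := fun k x => Real.sqrt_nonneg _
  have hs0 : ∀ k y, 0 ≤ s k y := fun k y => Real.sqrt_nonneg _
  have hRnn : 0 ≤ R := Real.rpow_nonneg (Finset.sum_nonneg fun x _ => pow_nonneg (hr0 0 x) 3) _
  have hsq : ∀ k, k ≤ m → ∀ y, s k y ^ 2 = M A k y := fun k hk y =>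
    Real.sq_sqrt (M_nonneg hA hk y)
  have hsm : ∀ k, k < m → ∀ y, s (k + 1) y ≤ s k y := fun k hk y =>
    Real.sqrt_le_sqrt (M_mono A hk y)
  have hsj : ∀ k, k < m → ∀ y, s k y ^ 2 ≤ 2 * s (k + 1) y ^ 2 := fun k hk y => by
    rw [hsq k hk.le, hsq (k + 1) hk]; exact M_jump hA hk y
  have hrm : ∀ k, k ≤ m → ∀ x, r k x ≤ r 0 x := fun k hk x =>
    Real.sqrt_le_sqrt (M_antitone B (Nat.zero_le k) hk x)
  have hrm1 : ∀ k, k < m → ∀ x, r (k + 1) x ≤ r k x := fun k hk x =>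
    Real.sqrt_le_sqrt (M_mono B hk x)
  -- Hölder on a fibre
  have hfib : ∀ (y : G m) (φ : G m → V), ∑ z, r 0 (y + z) * ‖φ z‖ ^ 2 ≤ R * Nm φ ^ 2 := by
    intro y φ
    have := fibre_holder (fun z => r 0 (y + z)) (fun z => hr0 0 _) φ
    rwa [sum_shift_left (fun x => r 0 x ^ 3) y] at this
  -- per-fibre telescoping
  have hz : ∀ z, ∑ k ∈ range m, ∑ y, (r (k + 1) (y + z) / s (k + 1) y)
        * ‖D k (fun y' => u y' z) y‖ ^ 2
      ≤ ∑ y, (s 0 y)⁻¹ * (r 0 (y + z) * ‖u y z‖ ^ 2)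
        + ∑ k ∈ range m, ∑ y, ((s (k + 1) y)⁻¹ - (s k y)⁻¹)
            * (r 0 (y + z) * ‖P k (fun y' => u y' z) y‖ ^ 2) := by
    intro z
    have key := telescope (fun y' => u y' z) (fun k y => r k (y + z) / s k y)
      (fun k y => by
        have e1 : s (k + 1) (y + dig m k) = s (k + 1) y := by
          simp only [hs]; rw [M_inv A (k + 1) k (by omega)]
        have e2 : r (k + 1) (y + dig m k + z) = r (k + 1) (y + z) := by
          simp only [hr]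
          rw [show y + dig m k + z = y + z + dig m k by abel, M_inv B (k + 1) k (by omega)]
        simp only [e1, e2]) m
    rw [key]
    have hdrop : 0 ≤ ∑ y, (r m (y + z) / s m y) * ‖P m (fun y' => u y' z) y‖ ^ 2 :=
      Finset.sum_nonneg fun y _ =>
        mul_nonneg (div_nonneg (hr0 _ _) (hs0 _ _)) (by positivity)
    have h1 : ∑ y, (r 0 (y + z) / s 0 y) * ‖(fun y' => u y' z) y‖ ^ 2
        = ∑ y, (s 0 y)⁻¹ * (r 0 (y + z) * ‖u y z‖ ^ 2) :=
      Finset.sum_congr rfl fun y _ => by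
        rw [div_eq_mul_inv]; ring
    have h2 : ∑ k ∈ range m, ∑ y, (r (k + 1) (y + z) / s (k + 1) y - r k (y + z) / s k y)
          * ‖P k (fun y' => u y' z) y‖ ^ 2
        ≤ ∑ k ∈ range m, ∑ y, ((s (k + 1) y)⁻¹ - (s k y)⁻¹)
            * (r 0 (y + z) * ‖P k (fun y' => u y' z) y‖ ^ 2) := by
      refine Finset.sum_le_sum fun k hk => Finset.sum_le_sum fun y _ => ?_
      have hk' : k < m := Finset.mem_range.mp hk
      have := weight_diff (hr0 (k + 1) (y + z)) (hrm1 k hk' (y + z)) (hrm k hk'.le (y + z))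
        (hs0 (k + 1) y) (hsm k hk' y) (hsj k hk' y)
      have h3 := mul_le_mul_of_nonneg_right this
        (sq_nonneg ‖P k (fun y' => u y' z) y‖)
      calc _ ≤ _ := h3
        _ = _ := by ring
    simp only at h1 ⊢
    linarith
  -- part I
  have hI : ∑ z, ∑ y, (s 0 y)⁻¹ * (r 0 (y + z) * ‖u y z‖ ^ 2) ≤ R * ∑ y, s 0 y ^ 3 := by
    rw [Finset.sum_comm, Finset.mul_sum]
    refine Finset.sum_le_sum fun y _ => ?_
    rw [← Finset.mul_sum]
    have h1 := hfib y (u y)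
    have hAle : A y ≤ s 0 y ^ 2 := by
      rw [hsq 0 (Nat.zero_le m)]; exact P_le_M A (Nat.zero_le m) y
    have hinv : 0 ≤ (s 0 y)⁻¹ := inv_nonneg.mpr (hs0 0 y)
    have h2 : (s 0 y)⁻¹ * (A y) ^ 2 ≤ s 0 y ^ 3 := by
      rcases (hs0 0 y).eq_or_lt with h | h
      · rw [← h] at hAle ⊢
        simp
      · have : A y ^ 2 ≤ (s 0 y ^ 2) ^ 2 := pow_le_pow_left₀ (hA y) hAle 2
        have e : (s 0 y)⁻¹ * (s 0 y ^ 2) ^ 2 = s 0 y ^ 3 := by field_simp
        calc (s 0 y)⁻¹ * A y ^ 2 ≤ (s 0 y)⁻¹ * (s 0 y ^ 2) ^ 2 :=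
              mul_le_mul_of_nonneg_left this hinv
          _ = _ := e
    calc (s 0 y)⁻¹ * ∑ z, r 0 (y + z) * ‖u y z‖ ^ 2
        ≤ (s 0 y)⁻¹ * (R * A y ^ 2) := mul_le_mul_of_nonneg_left h1 hinv
      _ = R * ((s 0 y)⁻¹ * A y ^ 2) := by ring
      _ ≤ R * s 0 y ^ 3 := mul_le_mul_of_nonneg_left h2 hRnn
  -- part II
  have hII : ∑ z, ∑ k ∈ range m, ∑ y, ((s (k + 1) y)⁻¹ - (s k y)⁻¹)
        * (r 0 (y + z) * ‖P k (fun y' => u y' z) y‖ ^ 2) ≤ R * ∑ y, s 0 y ^ 3 := by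
    rw [Finset.sum_comm]
    have hk : ∀ k ∈ range m, ∑ z, ∑ y, ((s (k + 1) y)⁻¹ - (s k y)⁻¹)
        * (r 0 (y + z) * ‖P k (fun y' => u y' z) y‖ ^ 2)
        ≤ R * (∑ y, s k y ^ 3 - ∑ y, s (k + 1) y ^ 3) := by
      intro k hk
      have hk' : k < m := Finset.mem_range.mp hk
      rw [Finset.sum_comm, ← Finset.sum_sub_distrib, Finset.mul_sum]
      refine Finset.sum_le_sum fun y _ => ?_
      rw [← Finset.mul_sum]
      have hcnn : 0 ≤ (s (k + 1) y)⁻¹ - (s k y)⁻¹ := by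
        rcases (hs0 (k + 1) y).eq_or_lt with h | h
        · have ha : s k y = 0 := by
            have := hsj k hk' y
            rw [← h] at this
            have h' : s k y ^ 2 ≤ 0 := by simpa using this
            nlinarith [sq_nonneg (s k y)]
          rw [← h, ha]; simp
        · exact sub_nonneg.mpr (inv_anti₀ h (hsm k hk' y))
      have h1 := hfib y (fun z => P k (fun y' => u y' z) y)
      have h2 : Nm (fun z => P k (fun y' => u y' z) y) ≤ s k y ^ 2 := by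
        rw [hsq k hk'.le]
        exact (Nm_P u k y).trans (P_le_M A hk'.le y)
      have h3 : Nm (fun z => P k (fun y' => u y' z) y) ^ 2 ≤ (s k y ^ 2) ^ 2 :=
        pow_le_pow_left₀ (Nm_nonneg _) h2 2
      have h4 := jump_cube (hs0 (k + 1) y) (hsm k hk' y) (hsj k hk' y)
      calc ((s (k + 1) y)⁻¹ - (s k y)⁻¹) * ∑ z, r 0 (y + z) * ‖P k (fun y' => u y' z) y‖ ^ 2
          ≤ ((s (k + 1) y)⁻¹ - (s k y)⁻¹) * (R * (s k y ^ 2) ^ 2) :=
            mul_le_mul_of_nonneg_left (h1.trans (mul_le_mul_of_nonneg_left h3 hRnn)) hcnn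
        _ = R * (((s (k + 1) y)⁻¹ - (s k y)⁻¹) * (s k y ^ 2) ^ 2) := by ring
        _ ≤ R * (s k y ^ 3 - s (k + 1) y ^ 3) := mul_le_mul_of_nonneg_left h4 hRnn
    refine (Finset.sum_le_sum hk).trans ?_
    rw [← Finset.mul_sum, Finset.sum_range_sub']
    refine mul_le_mul_of_nonneg_left ?_ hRnn
    have : 0 ≤ ∑ y, s m y ^ 3 := Finset.sum_nonneg fun y _ => pow_nonneg (hs0 m y) 3
    linarith
  calc _ ≤ ∑ z, (∑ y, (s 0 y)⁻¹ * (r 0 (y + z) * ‖u y z‖ ^ 2)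
        + ∑ k ∈ range m, ∑ y, ((s (k + 1) y)⁻¹ - (s k y)⁻¹)
            * (r 0 (y + z) * ‖P k (fun y' => u y' z) y‖ ^ 2)) :=
        Finset.sum_le_sum fun z _ => hz z
    _ ≤ R * ∑ y, s 0 y ^ 3 + R * ∑ y, s 0 y ^ 3 := by
        rw [Finset.sum_add_distrib]
        exact add_le_add hI hII
    _ = _ := by ring

/-- If the running maximum vanishes, the difference vanishes. -/
lemma D_vanish (u : G m → G m → V) {k : ℕ} (hk : k < m) (y z : G m)
    (h : √(M (fun y' => Nm (u y')) (k + 1) y) = 0) : D k (fun y' => u y' z) y = 0 := by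
  set A : G m → ℝ := fun y' => Nm (u y') with hAdef
  have hA : ∀ y, 0 ≤ A y := fun y => Nm_nonneg _
  have h0 : M A (k + 1) y = 0 :=
    le_antisymm ((Real.sqrt_eq_zero (M_nonneg hA hk y)).mp h).le (M_nonneg hA hk y)
  have h1 : ∀ y'', M A (k + 1) y'' = 0 → P k (fun y' => u y' z) y'' = 0 := by
    intro y'' hy''
    have h2 := M_jump hA hk y''
    rw [hy''] at h2
    have h3 := (Nm_P u k y'').trans (P_le_M A hk.le y'')
    have h4 := norm_le_Nm (fun z => P k (fun y' => u y' z) y'') z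
    have h5 : ‖P k (fun y' => u y' z) y''‖ ≤ 0 := by
      have : ‖P k (fun y' => u y' z) y''‖ ≤ Nm (fun z => P k (fun y' => u y' z) y'') := h4
      linarith
    exact norm_le_zero_iff.mp h5
  rw [D_eq, h1 y h0, h1 (y + dig m k) (by rw [M_inv A (k + 1) k (by omega)]; exact h0)]
  simp

lemma amgm_weight {p q r s l : ℝ} (hp : 0 ≤ p) (hq : 0 ≤ q) (hr : 0 ≤ r) (hs : 0 ≤ s) (hl : 0 < l)
    (h1 : s = 0 → p = 0) (h2 : r = 0 → q = 0) :
    p * q ≤ (l / 2) * ((r / s) * p ^ 2) + (1 / (2 * l)) * ((s / r) * q ^ 2) := by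
  rcases hs.eq_or_lt with h | h
  · rw [h1 h.symm]
    have : 0 ≤ (1 / (2 * l)) * ((s / r) * q ^ 2) := by positivity
    simpa using this
  rcases hr.eq_or_lt with h' | h'
  · rw [h2 h'.symm]
    have : 0 ≤ (l / 2) * ((r / s) * p ^ 2) := by positivity
    simpa using this
  have e : (l / 2) * ((r / s) * p ^ 2) + (1 / (2 * l)) * ((s / r) * q ^ 2) - p * q
      = (l * r * p - s * q) ^ 2 / (2 * l * r * s) := by
    field_simp
    ring
  have : 0 ≤ (l * r * p - s * q) ^ 2 / (2 * l * r * s) := by positivity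
  linarith

/-- The core estimate for vector-valued `u, v`. -/
lemma core_bound (u v : G m → G m → V) :
    (∑ k ∈ range m, |∑ z, ∑ y, ⟪u y z, D k (fun y' => v (y' + z) z) y⟫|) ^ 3
      ≤ 8 * (∑ y, (√(M (fun y' => Nm (u y')) 0 y)) ^ 3) ^ 2
          * (∑ x, (√(M (fun x' => Nm (v x')) 0 x)) ^ 3) ^ 2 := by
  set A : G m → ℝ := fun y' => Nm (u y') with hAdef
  set B : G m → ℝ := fun x' => Nm (v x') with hBdef
  have hA : ∀ y, 0 ≤ A y := fun y => Nm_nonneg _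
  have hB : ∀ y, 0 ≤ B y := fun y => Nm_nonneg _
  set aS : ℝ := ∑ y, (√(M A 0 y)) ^ 3 with haS
  set aR : ℝ := ∑ x, (√(M B 0 x)) ^ 3 with haR
  have haS0 : 0 ≤ aS := Finset.sum_nonneg fun y _ => by positivity
  have haR0 : 0 ≤ aR := Finset.sum_nonneg fun y _ => by positivity
  set α : ℝ := aS ^ ((1 : ℝ) / 3) with hα
  set β : ℝ := aR ^ ((1 : ℝ) / 3) with hβ
  have hα0 : 0 ≤ α := Real.rpow_nonneg haS0 _
  have hβ0 : 0 ≤ β := Real.rpow_nonneg haR0 _
  have hα3 : α ^ 3 = aS := root_cube haS0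
  have hβ3 : β ^ 3 = aR := root_cube haR0
  set Tot : ℝ := ∑ k ∈ range m, |∑ z, ∑ y, ⟪u y z, D k (fun y' => v (y' + z) z) y⟫| with hTot
  have hTot0 : 0 ≤ Tot := Finset.sum_nonneg fun _ _ => abs_nonneg _
  have S1 := S1_bound u B hB
  have S2 := S1_bound v A hA
  have main : ∀ l : ℝ, 0 < l → Tot ≤ (l / 2) * (2 * β * aS) + (1 / (2 * l)) * (2 * α * aR) := by
    intro l hl
    have hk : ∀ k ∈ range m, |∑ z, ∑ y, ⟪u y z, D k (fun y' => v (y' + z) z) y⟫|
        ≤ (l / 2) * ∑ z, ∑ y, (√(M B (k + 1) (y + z)) / √(M A (k + 1) y))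
              * ‖D k (fun y' => u y' z) y‖ ^ 2
          + (1 / (2 * l)) * ∑ z, ∑ y, (√(M A (k + 1) (y + z)) / √(M B (k + 1) y))
              * ‖D k (fun y' => v y' z) y‖ ^ 2 := by
      intro k hk
      have hk' : k < m := Finset.mem_range.mp hk
      rw [Finset.mul_sum, Finset.mul_sum, ← Finset.sum_add_distrib]
      refine (Finset.abs_sum_le_sum_abs _ _).trans (Finset.sum_le_sum fun z _ => ?_)
      rw [sum_inner_D k (fun y => u y z) (fun y' => v (y' + z) z), Finset.mul_sum, Finset.mul_sum,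
        ← sum_shift (fun y => (1 / (2 * l)) * ((√(M A (k + 1) (y + z)) / √(M B (k + 1) y))
              * ‖D k (fun y' => v y' z) y‖ ^ 2)) z, ← Finset.sum_add_distrib]
      refine (Finset.abs_sum_le_sum_abs _ _).trans (Finset.sum_le_sum fun y _ => ?_)
      refine (abs_real_inner_le_norm _ _).trans ?_
      rw [D_transl k (fun x => v x z) z y, add_add_cancel]
      exact amgm_weight (norm_nonneg _) (norm_nonneg _) (Real.sqrt_nonneg _) (Real.sqrt_nonneg _) hl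
        (fun h => by
          rw [D_vanish u hk' y z h, norm_zero])
        (fun h => by
          rw [D_vanish v hk' (y + z) z h, norm_zero])
    have e1 : ∑ k ∈ range m, ∑ z, ∑ y, (√(M B (k + 1) (y + z)) / √(M A (k + 1) y))
              * ‖D k (fun y' => u y' z) y‖ ^ 2 ≤ 2 * β * aS := by
      rw [Finset.sum_comm]; exact S1
    have e2 : ∑ k ∈ range m, ∑ z, ∑ y, (√(M A (k + 1) (y + z)) / √(M B (k + 1) y))
              * ‖D k (fun y' => v y' z) y‖ ^ 2 ≤ 2 * α * aR := by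
      rw [Finset.sum_comm]; exact S2
    refine (Finset.sum_le_sum hk).trans ?_
    rw [Finset.sum_add_distrib, ← Finset.mul_sum, ← Finset.mul_sum]
    exact add_le_add (mul_le_mul_of_nonneg_left e1 (by positivity))
      (mul_le_mul_of_nonneg_left e2 (by positivity))
  have h2 : Tot ≤ 2 * α ^ 2 * β ^ 2 := by
    rcases hα0.eq_or_lt with h | h
    · have h0 : aS = 0 := by rw [← hα3, ← h]; norm_num
      have := main 1 one_pos
      rw [h0, ← h] at this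
      have h' : Tot ≤ 0 := by simpa using this
      rw [← h]
      simpa using h'
    rcases hβ0.eq_or_lt with h' | h'
    · have h0 : aR = 0 := by rw [← hβ3, ← h']; norm_num
      have := main 1 one_pos
      rw [h0, ← h'] at this
      have h'' : Tot ≤ 0 := by simpa using this
      rw [← h']
      simpa using h''
    · have := main (β / α) (div_pos h' h)
      rw [← hα3, ← hβ3] at this
      have e : (β / α / 2) * (2 * β * α ^ 3) + (1 / (2 * (β / α))) * (2 * α * β ^ 3)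
          = 2 * α ^ 2 * β ^ 2 := by
        field_simp
        ring
      rwa [e] at this
  have h3 : Tot ^ 3 ≤ (2 * α ^ 2 * β ^ 2) ^ 3 := pow_le_pow_left₀ hTot0 h2 3
  calc Tot ^ 3 ≤ (2 * α ^ 2 * β ^ 2) ^ 3 := h3
    _ = 8 * (α ^ 3) ^ 2 * (β ^ 3) ^ 2 := by ring
    _ = _ := by rw [hα3, hβ3]

end Vale.Agent.P075
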