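import Mathlib

/-!
# Dyadic triangular form with a factored input: martingale part

Digit vectors `G m = Fin m → ZMod 2`, dyadic averages `P k`, differences `D k`.
-/

open scoped BigOperators RealInnerProductSpace
open Finset

namespace Vale.Agent.P075

/-- Binary digit vectors of length `m` (the integers below `2^m` with bitwise XOR). -/
abbrev G (m : ℕ) := Fin m → ZMod 2

variable {m : ℕ}

/-- The digit vector with a single digit `1` at position `k`. -/
def dig (m k : ℕ) : G m := fun j => if j.val = k then 1 else 0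

lemma self_add_self (c : G m) : c + c = 0 := by
  ext j
  exact CharTwo.add_self_eq_zero (c j)

lemma add_add_cancel (y c : G m) : y + c + c = y := by
  rw [add_assoc, self_add_self, add_zero]

lemma sum_shift {W : Type*} [AddCommMonoid W] (φ : G m → W) (c : G m) :
    ∑ y, φ (y + c) = ∑ y, φ y :=
  Equiv.sum_comp (Equiv.addRight c) φ

section Avg

variable {W : Type*} [AddCommGroup W] [Module ℝ W]

/-- Dyadic average over the `k` lowest digits. -/
noncomputable def P : ℕ → (G m → W) → G m → W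
  | 0, g => g
  | k + 1, g => fun y => (1 / 2 : ℝ) • (P k g y + P k g (y + dig m k))

/-- Martingale difference. -/
noncomputable def D (k : ℕ) (g : G m → W) (y : G m) : W := P k g y - P (k + 1) g y

lemma P_succ (k : ℕ) (g : G m → W) (y : G m) :
    P (k + 1) g y = (1 / 2 : ℝ) • (P k g y + P k g (y + dig m k)) := rfl

lemma P_inv (k : ℕ) (g : G m → W) (j : ℕ) (hj : j < k) (y : G m) :
    P k g (y + dig m j) = P k g y := by
  induction k generalizing y with
  | zero => omega
  | succ k ih =>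
    rw [P_succ, P_succ]
    rcases Nat.lt_succ_iff_lt_or_eq.mp hj with h | h
    · rw [ih h, show y + dig m j + dig m k = y + dig m k + dig m j by abel, ih h]
    · subst h
      rw [add_add_cancel, add_comm]

lemma P_transl (k : ℕ) (g : G m → W) (c y : G m) :
    P k (fun y' => g (y' + c)) y = P k g (y + c) := by
  induction k generalizing y with
  | zero => rfl
  | succ k ih =>
    rw [P_succ, P_succ, ih, ih, show y + dig m k + c = y + c + dig m k by abel]

lemma D_eq (k : ℕ) (g : G m → W) (y : G m) :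
    D k g y = (1 / 2 : ℝ) • (P k g y - P k g (y + dig m k)) := by
  unfold D
  rw [P_succ]
  module

lemma D_anti (k : ℕ) (g : G m → W) (y : G m) : D k g (y + dig m k) = - D k g y := by
  rw [D_eq, D_eq, add_add_cancel]
  module

lemma D_transl (k : ℕ) (g : G m → W) (c y : G m) :
    D k (fun y' => g (y' + c)) y = D k g (y + c) := by
  unfold D
  rw [P_transl, P_transl]

lemma D_inv (k : ℕ) (g : G m → W) (j : ℕ) (hj : j < k) (y : G m) :
    D k g (y + dig m j) = D k g y := by
  unfold D
  rw [P_inv k g j hj, P_inv (k + 1) g j (by omega)]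

end Avg

section Hilbert

variable {V : Type*} [NormedAddCommGroup V] [InnerProductSpace ℝ V]

lemma sum_inner_P (k : ℕ) (f h : G m → V)
    (hh : ∀ j, j < k → ∀ y, h (y + dig m j) = h y) :
    ∑ y, ⟪f y, h y⟫ = ∑ y, ⟪P k f y, h y⟫ := by
  induction k with
  | zero => rfl
  | succ k ih =>
    rw [ih (fun j hj => hh j (by omega))]
    have e : ∑ y, ⟪P k f (y + dig m k), h y⟫ = ∑ y, ⟪P k f y, h y⟫ := by
      rw [← sum_shift (fun y => ⟪P k f y, h y⟫) (dig m k)]
      refine Finset.sum_congr rfl fun y _ => ?_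
      rw [hh k (by omega) y]
    have : ∑ y, ⟪P (k + 1) f y, h y⟫
        = (1 / 2 : ℝ) * (∑ y, ⟪P k f y, h y⟫ + ∑ y, ⟪P k f (y + dig m k), h y⟫) := by
      rw [← Finset.sum_add_distrib, Finset.mul_sum]
      refine Finset.sum_congr rfl fun y _ => ?_
      rw [P_succ, real_inner_smul_left, inner_add_left]
    rw [this, e]
    ring

/-- Self-adjoint idempotence of the martingale difference. -/
lemma sum_inner_D (k : ℕ) (f g : G m → V) :
    ∑ y, ⟪f y, D k g y⟫ = ∑ y, ⟪D k f y, D k g y⟫ := by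
  rw [sum_inner_P k f (D k g) (fun j hj y => D_inv k g j hj y)]
  have e : ∑ y, ⟪P k f (y + dig m k), D k g y⟫ = - ∑ y, ⟪P k f y, D k g y⟫ := by
    rw [← sum_shift (fun y => ⟪P k f y, D k g y⟫) (dig m k), ← Finset.sum_neg_distrib]
    refine Finset.sum_congr rfl fun y _ => ?_
    rw [D_anti, inner_neg_right, neg_neg]
  have : ∑ y, ⟪D k f y, D k g y⟫
      = (1 / 2 : ℝ) * (∑ y, ⟪P k f y, D k g y⟫ - ∑ y, ⟪P k f (y + dig m k), D k g y⟫) := by
    rw [← Finset.sum_sub_distrib, Finset.mul_sum]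
    refine Finset.sum_congr rfl fun y _ => ?_
    rw [D_eq k f y, real_inner_smul_left, inner_sub_left]
  rw [this, e]
  ring

/-- Weighted energy identity for a weight invariant under the digit `k`. -/
lemma energy (k : ℕ) (f : G m → V) (τ : G m → ℝ) (hτ : ∀ y, τ (y + dig m k) = τ y) :
    ∑ y, τ y * ‖D k f y‖ ^ 2
      = ∑ y, τ y * ‖P k f y‖ ^ 2 - ∑ y, τ y * ‖P (k + 1) f y‖ ^ 2 := by
  have e : ∑ y, τ y * ‖P k f (y + dig m k)‖ ^ 2 = ∑ y, τ y * ‖P k f y‖ ^ 2 := by
    rw [← sum_shift (fun y => τ y * ‖P k f y‖ ^ 2) (dig m k)]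
    refine Finset.sum_congr rfl fun y _ => ?_
    rw [hτ]
  have key : ∀ y, τ y * ‖D k f y‖ ^ 2 + τ y * ‖P (k + 1) f y‖ ^ 2
      = (1 / 2 : ℝ) * (τ y * ‖P k f y‖ ^ 2 + τ y * ‖P k f (y + dig m k)‖ ^ 2) := by
    intro y
    rw [D_eq, P_succ, norm_smul, norm_smul, mul_pow, mul_pow, norm_sub_sq_real, norm_add_sq_real]
    have : ‖(1 / 2 : ℝ)‖ ^ 2 = 1 / 4 := by
      rw [Real.norm_eq_abs, sq_abs]; norm_num
    rw [this]
    ring
  have : ∑ y, τ y * ‖D k f y‖ ^ 2 + ∑ y, τ y * ‖P (k + 1) f y‖ ^ 2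
      = (1 / 2 : ℝ) * (∑ y, τ y * ‖P k f y‖ ^ 2 + ∑ y, τ y * ‖P k f (y + dig m k)‖ ^ 2) := by
    rw [← Finset.sum_add_distrib, ← Finset.sum_add_distrib, Finset.mul_sum]
    exact Finset.sum_congr rfl fun y _ => key y
  rw [e] at this
  linarith

/-- Summation by parts of the energy identity. -/
lemma telescope (f : G m → V) (T : ℕ → G m → ℝ)
    (hT : ∀ k, ∀ y, T (k + 1) (y + dig m k) = T (k + 1) y) (n : ℕ) :
    ∑ k ∈ range n, ∑ y, T (k + 1) y * ‖D k f y‖ ^ 2
      = ∑ y, T 0 y * ‖f y‖ ^ 2 - ∑ y, T n y * ‖P n f y‖ ^ 2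
        + ∑ k ∈ range n, ∑ y, (T (k + 1) y - T k y) * ‖P k f y‖ ^ 2 := by
  induction n with
  | zero => simp [P]
  | succ n ih =>
    rw [Finset.sum_range_succ, Finset.sum_range_succ, ih, energy n f (T (n + 1)) (hT n)]
    have : ∑ y, (T (n + 1) y - T n y) * ‖P n f y‖ ^ 2
        = ∑ y, T (n + 1) y * ‖P n f y‖ ^ 2 - ∑ y, T n y * ‖P n f y‖ ^ 2 := by
      rw [← Finset.sum_sub_distrib]
      exact Finset.sum_congr rfl fun y _ => by ring
    rw [this]
    ring

end Hilbert

section Scalar

/-- Helper recursion for the running maximum. -/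
noncomputable def Mx (A : G m → ℝ) : ℕ → ℕ → G m → ℝ
  | 0, k, y => P k A y
  | n + 1, k, y => max (P k A y) (Mx A n (k + 1) y)

/-- Running maximum of the dyadic averages of `A` over the scales from `k` up to `m`. -/
noncomputable def M (A : G m → ℝ) (k : ℕ) (y : G m) : ℝ := Mx A (m - k) k y

lemma M_top (A : G m → ℝ) (y : G m) : M A m y = P m A y := by
  simp [M, Mx]

lemma M_succ (A : G m → ℝ) {k : ℕ} (hk : k < m) (y : G m) :
    M A k y = max (P k A y) (M A (k + 1) y) := by
  unfold M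
  have : m - k = (m - (k + 1)) + 1 := by omega
  rw [this]
  rfl

lemma Mx_inv (A : G m → ℝ) (n k j : ℕ) (hj : j < k) (y : G m) :
    Mx A n k (y + dig m j) = Mx A n k y := by
  induction n generalizing k with
  | zero => exact P_inv k A j hj y
  | succ n ih =>
    simp only [Mx]
    rw [P_inv k A j hj y, ih (k + 1) (by omega)]

lemma M_inv (A : G m → ℝ) (k j : ℕ) (hj : j < k) (y : G m) :
    M A k (y + dig m j) = M A k y := Mx_inv A _ k j hj y

lemma P_nonneg {A : G m → ℝ} (hA : ∀ y, 0 ≤ A y) (k : ℕ) (y : G m) : 0 ≤ P k A y := by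
  induction k generalizing y with
  | zero => exact hA y
  | succ k ih =>
    rw [P_succ, smul_eq_mul]
    have := ih y
    have := ih (y + dig m k)
    positivity

lemma P_le_M (A : G m → ℝ) {k : ℕ} (hk : k ≤ m) (y : G m) : P k A y ≤ M A k y := by
  rcases Nat.lt_or_eq_of_le hk with h | h
  · rw [M_succ A h]; exact le_max_left _ _
  · subst h; rw [M_top]

lemma M_nonneg {A : G m → ℝ} (hA : ∀ y, 0 ≤ A y) {k : ℕ} (hk : k ≤ m) (y : G m) : 0 ≤ M A k y :=
  (P_nonneg hA k y).trans (P_le_M A hk y)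

lemma M_mono (A : G m → ℝ) {k : ℕ} (hk : k < m) (y : G m) : M A (k + 1) y ≤ M A k y := by
  rw [M_succ A hk]; exact le_max_right _ _

lemma M_jump {A : G m → ℝ} (hA : ∀ y, 0 ≤ A y) {k : ℕ} (hk : k < m) (y : G m) :
    M A k y ≤ 2 * M A (k + 1) y := by
  rw [M_succ A hk]
  have h0 := M_nonneg hA (k := k + 1) hk y
  refine max_le ?_ (by linarith)
  have h1 := P_le_M A (k := k + 1) hk y
  rw [P_succ, smul_eq_mul] at h1
  have h2 := P_nonneg hA k (y + dig m k)
  linarith

/-- Running-maximum chain along the scales goes down to `M A m`. -/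
lemma M_antitone (A : G m → ℝ) {k l : ℕ} (hkl : k ≤ l) (hl : l ≤ m) (y : G m) :
    M A l y ≤ M A k y := by
  induction l, hkl using Nat.le_induction with
  | base => exact le_rfl
  | succ l hl' ih => exact (M_mono A (by omega) y).trans (ih (by omega))

/-- Discrete Doob inequality at exponent `3/2`, in square-root variables. -/
lemma doob {A : G m → ℝ} (hA : ∀ y, 0 ≤ A y) :
    ∑ y, (√(M A 0 y)) ^ 3 ≤ 6 * ∑ y, (√(A y)) ^ 3 := by
  set s : ℕ → G m → ℝ := fun k y => √(M A k y) with hs
  have hs0 : ∀ k y, 0 ≤ s k y := fun k y => Real.sqrt_nonneg _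
  have hsq : ∀ k, k ≤ m → ∀ y, s k y ^ 2 = M A k y := fun k hk y =>
    Real.sq_sqrt (M_nonneg hA hk y)
  set W : ℕ → ℝ := fun k => ∑ y, (s k y * P k A y - (1 / 3) * s k y ^ 3) with hW
  have step : ∀ k, k < m → W (k + 1) ≤ W k := by
    intro k hk
    have hz : ∑ y, s (k + 1) y * D k A y = 0 := by
      have e : ∑ y, s (k + 1) y * D k A y = - ∑ y, s (k + 1) y * D k A y := by
        conv_lhs => rw [← sum_shift (fun y => s (k + 1) y * D k A y) (dig m k)]
        rw [← Finset.sum_neg_distrib]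
        refine Finset.sum_congr rfl fun y _ => ?_
        rw [D_anti]
        have : s (k + 1) (y + dig m k) = s (k + 1) y := by
          simp only [hs]; rw [M_inv A (k + 1) k (by omega)]
        rw [this]
        ring
      linarith
    have hp : ∀ y, (s (k + 1) y * P (k + 1) A y - (1 / 3) * s (k + 1) y ^ 3)
        + s (k + 1) y * D k A y ≤ s k y * P k A y - (1 / 3) * s k y ^ 3 := by
      intro y
      have hsm : s (k + 1) y ≤ s k y := Real.sqrt_le_sqrt (M_mono A hk y)
      have hb := hs0 (k + 1) y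
      have ha := hs0 k y
      have hD : D k A y = P k A y - P (k + 1) A y := rfl
      rw [hD]
      have hc : M A k y = M A (k + 1) y ∨ M A k y = P k A y := by
        rw [M_succ A hk]
        rcases max_choice (P k A y) (M A (k + 1) y) with h | h
        · right; rw [h]
        · left; rw [h]
      rcases hc with h | h
      · have : s k y = s (k + 1) y := by simp only [hs]; rw [h]
        rw [this]; linarith
      · have hX : P k A y = s k y ^ 2 := by rw [hsq k hk.le, h]
        rw [hX]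
        have hX2 : s (k + 1) y * (s k y ^ 2 - P (k + 1) A y)
            + (s (k + 1) y * P (k + 1) A y - (1 / 3) * s (k + 1) y ^ 3)
            = s (k + 1) y * s k y ^ 2 - (1 / 3) * s (k + 1) y ^ 3 := by ring
        nlinarith [mul_nonneg hb ha, mul_nonneg (sub_nonneg.mpr hsm) (sq_nonneg (s k y - s (k + 1) y)),
          mul_nonneg (sub_nonneg.mpr hsm) (mul_nonneg hb ha),
          mul_nonneg (sub_nonneg.mpr hsm) (sq_nonneg (s k y))]
    have : W (k + 1) + ∑ y, s (k + 1) y * D k A y ≤ W k := by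
      simp only [hW]
      rw [← Finset.sum_add_distrib]
      exact Finset.sum_le_sum fun y _ => hp y
    linarith
  have htop : 0 ≤ W m := by
    simp only [hW]
    refine Finset.sum_nonneg fun y _ => ?_
    have : P m A y = s m y ^ 2 := by rw [hsq m le_rfl, M_top]
    rw [this]
    have := hs0 m y
    have h3 : 0 ≤ s m y ^ 3 := by positivity
    nlinarith
  have hall : ∀ n, n ≤ m → 0 ≤ W (m - n) := by
    intro n
    induction n with
    | zero => intro _; simpa using htop
    | succ n ih =>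
      intro hn
      have h1 := ih (by omega)
      have h2 := step (m - (n + 1)) (by omega)
      have h3 : m - (n + 1) + 1 = m - n := by omega
      rw [h3] at h2
      linarith
  have h0 : 0 ≤ W 0 := by simpa using hall m le_rfl
  have hpt : ∀ y, s 0 y * A y - (1 / 3) * s 0 y ^ 3 ≤ (√(A y)) ^ 3 - (1 / 6) * s 0 y ^ 3 := by
    intro y
    have ht := Real.sqrt_nonneg (A y)
    have hsy := hs0 0 y
    have hA2 : A y = (√(A y)) ^ 2 := (Real.sq_sqrt (hA y)).symm
    set t := √(A y)
    rw [hA2]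
    -- `3 s t² ≤ s³/2 + 3 t³`
    have : 3 * (s 0 y * t ^ 2) ≤ s 0 y ^ 3 / 2 + 3 * t ^ 3 := by
      nlinarith [mul_nonneg hsy (sq_nonneg (s 0 y - 2 * t)), mul_nonneg ht (sq_nonneg (s 0 y - 2 * t)),
        mul_nonneg hsy (sq_nonneg (s 0 y - t)), mul_nonneg ht (sq_nonneg (s 0 y - t)),
        mul_nonneg hsy ht, pow_nonneg hsy 3, pow_nonneg ht 3]
    nlinarith
  have : W 0 ≤ ∑ y, (√(A y)) ^ 3 - (1 / 6) * ∑ y, s 0 y ^ 3 := by
    simp only [hW, P]
    rw [Finset.mul_sum, ← Finset.sum_sub_distrib]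
    exact Finset.sum_le_sum fun y _ => hpt y
  simp only [hs] at this
  have h00 := h0
  linarith

end Scalar

end Vale.Agent.P075
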