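import Vale.Agent.P075.Bound

/-!
# The dyadic triangular form on digit vectors and its factored-input bound
-/

open scoped BigOperators RealInnerProductSpace
open Finset

namespace Vale.Agent.P075

variable {m : ℕ}

/-- Kernel of scale `i`: it is supported where all digits above `i` vanish, with sign given by the
digit `i`. It is the product `h_{I_0} h_{I_1} h_{I_2}` on the triples of dyadic intervals of
length `2^(i+1)` with vanishing XOR of indices, evaluated at `w = x + y + z`. -/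
noncomputable def Ker (i : Fin m) (w : G m) : ℝ :=
  if ∀ j : Fin m, i < j → w j = 0 then (if w i = 0 then 1 else -1) else 0

/-- The scale `i` part of the dyadic triangular form on unit-scale step functions. -/
noncomputable def L (F₀ F₁ F₂ : G m → G m → ℝ) (i : Fin m) : ℝ :=
  (1 / 2 ^ (i.val + 1) : ℝ) * ∑ x, ∑ y, ∑ z, F₀ x y * F₁ y z * F₂ z x * Ker i (x + y + z)

/-- Indicator of the digits from `k` on vanishing. -/
noncomputable def Hi (k : ℕ) (w : G m) : ℝ := if ∀ j : Fin m, k ≤ j.val → w j = 0 then 1 else 0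

lemma zmod2_cases (a : ZMod 2) : a = 0 ∨ a = 1 := by
  revert a; decide

lemma dig_at (k : ℕ) (hk : k < m) : dig m k (⟨k, hk⟩ : Fin m) = 1 := by simp [dig]

lemma dig_ne (k : ℕ) (j : Fin m) (hj : j.val ≠ k) : dig m k j = 0 := by simp [dig, hj]

lemma Hi_succ {k : ℕ} (hk : k < m) (w : G m) : Hi (k + 1) w = Hi k w + Hi k (w + dig m k) := by
  unfold Hi
  set kk : Fin m := ⟨k, hk⟩ with hkk
  rcases zmod2_cases (w kk) with h | h
  · have h1 : (∀ j : Fin m, k + 1 ≤ j.val → w j = 0) ↔ (∀ j : Fin m, k ≤ j.val → w j = 0) := by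
      constructor
      · intro H j hj
        by_cases e : j.val = k
        · have : j = kk := Fin.ext e
          rw [this]; exact h
        · exact H j (by omega)
      · intro H j hj
        exact H j (by omega)
    have h2 : ¬ (∀ j : Fin m, k ≤ j.val → (w + dig m k) j = 0) := by
      intro H
      have := H kk le_rfl
      rw [Pi.add_apply, h, dig_at k hk] at this
      exact absurd this (by decide)
    rw [if_neg h2, add_zero]
    by_cases h3 : ∀ j : Fin m, k ≤ j.val → w j = 0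
    · rw [if_pos h3, if_pos (h1.mpr h3)]
    · rw [if_neg h3, if_neg (fun H => h3 (h1.mp H))]
  · have h1 : (∀ j : Fin m, k + 1 ≤ j.val → w j = 0)
        ↔ (∀ j : Fin m, k ≤ j.val → (w + dig m k) j = 0) := by
      constructor
      · intro H j hj
        by_cases e : j.val = k
        · have : j = kk := Fin.ext e
          rw [this, Pi.add_apply, h, dig_at k hk]
          decide
        · rw [Pi.add_apply, dig_ne k j e, add_zero]
          exact H j (by omega)
      · intro H j hj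
        have := H j (by omega)
        rwa [Pi.add_apply, dig_ne k j (by omega), add_zero] at this
    have h2 : ¬ (∀ j : Fin m, k ≤ j.val → w j = 0) := by
      intro H
      have := H kk le_rfl
      rw [h] at this
      exact absurd this (by decide)
    rw [if_neg h2, zero_add]
    by_cases h3 : ∀ j : Fin m, k ≤ j.val → (w + dig m k) j = 0
    · rw [if_pos h3, if_pos (h1.mpr h3)]
    · rw [if_neg h3, if_neg (fun H => h3 (h1.mp H))]

section

variable {W : Type*} [AddCommGroup W] [Module ℝ W]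

lemma P_formula (g : G m → W) {k : ℕ} (hk : k ≤ m) (y : G m) :
    P k g y = (1 / 2 ^ k : ℝ) • ∑ w, Hi k w • g (y + w) := by
  induction k generalizing y with
  | zero =>
    have h0 : ∀ w : G m, w ≠ 0 → Hi 0 w • g (y + w) = 0 := by
      intro w hw
      have : ¬ (∀ j : Fin m, 0 ≤ j.val → w j = 0) := by
        intro H
        exact hw (funext fun j => H j (Nat.zero_le _))
      unfold Hi
      rw [if_neg this, zero_smul]
    rw [Finset.sum_eq_single (0 : G m) (fun w _ hw => h0 w hw) (fun h => absurd (mem_univ _) h)]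
    have : Hi 0 (0 : G m) = 1 := by
      unfold Hi
      exact if_pos (fun j _ => rfl)
    rw [this, one_smul, add_zero]
    simp [P]
  | succ k ih =>
    have hk' : k < m := hk
    rw [P_succ, ih hk'.le, ih hk'.le, ← smul_add, smul_smul]
    have e : ∑ w, Hi k w • g (y + dig m k + w) = ∑ w, Hi k (w + dig m k) • g (y + w) := by
      rw [← sum_shift (fun w => Hi k w • g (y + dig m k + w)) (dig m k)]
      refine Finset.sum_congr rfl fun w _ => ?_
      rw [show y + dig m k + (w + dig m k) = y + w + (dig m k + dig m k) by abel, self_add_self,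
        add_zero]
    rw [e, ← Finset.sum_add_distrib]
    have e2 : ∀ w, Hi k w • g (y + w) + Hi k (w + dig m k) • g (y + w) = Hi (k + 1) w • g (y + w) := by
      intro w
      rw [Hi_succ hk', add_smul]
    simp only [e2]
    congr 1
    rw [pow_succ]
    ring

lemma Ker_eq (i : Fin m) (w : G m) : Ker i w = 2 * Hi i.val w - Hi (i.val + 1) w := by
  unfold Ker Hi
  have hi : ∀ j : Fin m, i.val + 1 ≤ j.val ↔ i < j := fun j => by
    rw [Fin.lt_def]; omega
  simp only [hi]
  by_cases h : ∀ j : Fin m, i < j → w j = 0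
  · rw [if_pos h]
    by_cases h0 : w i = 0
    · have h3 : ∀ j : Fin m, i.val ≤ j.val → w j = 0 := by
        intro j hj
        by_cases e : j.val = i.val
        · rw [Fin.ext e]; exact h0
        · exact h j (by rw [Fin.lt_def]; omega)
      rw [if_pos h0, if_pos h3, if_pos h]
      norm_num
    · have h3 : ¬ ∀ j : Fin m, i.val ≤ j.val → w j = 0 := fun H => h0 (H i le_rfl)
      rw [if_neg h0, if_neg h3, if_pos h]
      norm_num
  · rw [if_neg h]
    have h3 : ¬ ∀ j : Fin m, i.val ≤ j.val → w j = 0 := fun H =>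
      h (fun j hj => H j (le_of_lt (Fin.lt_def.mp hj)))
    rw [if_neg h3, if_neg h]
    norm_num

lemma D_formula (g : G m → W) (i : Fin m) (y : G m) :
    D i.val g y = (1 / 2 ^ (i.val + 1) : ℝ) • ∑ w, Ker i w • g (y + w) := by
  unfold D
  rw [P_formula g i.isLt.le, P_formula g (show i.val + 1 ≤ m from i.isLt), Finset.smul_sum,
    Finset.smul_sum, Finset.smul_sum, ← Finset.sum_sub_distrib]
  refine Finset.sum_congr rfl fun w _ => ?_
  rw [Ker_eq, smul_smul, smul_smul, ← sub_smul, smul_smul]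
  congr 1
  rw [pow_succ]
  field_simp

end

variable {V : Type*} [NormedAddCommGroup V] [InnerProductSpace ℝ V]

lemma form_eq (a b : G m → V) (F₁ F₂ : G m → G m → ℝ) (i : Fin m) :
    L (fun x y => ⟪a x, b y⟫) F₁ F₂ i
      = ∑ z, ∑ y, ⟪F₁ y z • b y, D i.val (fun y' => F₂ z (y' + z) • a (y' + z)) y⟫ := by
  unfold L
  rw [Finset.mul_sum]
  have h1 : ∀ z y : G m, ⟪F₁ y z • b y, D i.val (fun y' => F₂ z (y' + z) • a (y' + z)) y⟫
      = (1 / 2 ^ (i.val + 1) : ℝ) * ∑ x, ⟪a x, b y⟫ * F₁ y z * F₂ z x * Ker i (x + y + z) := by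
    intro z y
    rw [D_formula, real_inner_smul_left, real_inner_smul_right, inner_sum,
      ← sum_shift (fun w => ⟪b y, Ker i w • (F₂ z (y + w + z) • a (y + w + z))⟫) (y + z)]
    have : ∀ x : G m, ⟪b y, Ker i (x + (y + z)) • (F₂ z (y + (x + (y + z)) + z) • a (y + (x + (y + z)) + z))⟫
        = ⟪a x, b y⟫ * F₂ z x * Ker i (x + y + z) := by
      intro x
      have e : y + (x + (y + z)) + z = x + (y + y) + (z + z) := by abel
      rw [e, self_add_self, self_add_self, add_zero, add_zero, real_inner_smul_right,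
        real_inner_smul_right, real_inner_comm, ← add_assoc]
      ring
    simp only [this]
    rw [Finset.mul_sum, Finset.mul_sum, Finset.mul_sum]
    refine Finset.sum_congr rfl fun x _ => ?_
    ring
  simp only [h1]
  rw [← Finset.mul_sum]
  simp only [← Finset.mul_sum]
  congr 1
  -- reorder the sums
  calc ∑ x, ∑ y, ∑ z, ⟪a x, b y⟫ * F₁ y z * F₂ z x * Ker i (x + y + z)
      = ∑ y, ∑ x, ∑ z, ⟪a x, b y⟫ * F₁ y z * F₂ z x * Ker i (x + y + z) := Finset.sum_comm
    _ = ∑ y, ∑ z, ∑ x, ⟪a x, b y⟫ * F₁ y z * F₂ z x * Ker i (x + y + z) :=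
        Finset.sum_congr rfl fun y _ => Finset.sum_comm
    _ = ∑ z, ∑ y, ∑ x, ⟪a x, b y⟫ * F₁ y z * F₂ z x * Ker i (x + y + z) := Finset.sum_comm

/-- Reduction of the mixed norm to `ℓ³` norms. -/
lemma mixed_bound (b : G m → V) (F : G m → G m → ℝ) :
    (∑ y, (√(Nm (fun z => F y z • b y))) ^ 3) ^ 2
      ≤ (∑ y, ‖b y‖ ^ 3) * ∑ y, ∑ z, |F y z| ^ 3 := by
  have key : ∀ y, (√(Nm (fun z => F y z • b y))) ^ 3 = √(‖b y‖ ^ 3) * √(∑ z, |F y z| ^ 3) := by
    intro y
    have hc : 0 ≤ ∑ z, |F y z| ^ 3 := Finset.sum_nonneg fun _ _ => by positivity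
    refine (pow_left_inj₀ (pow_nonneg (Real.sqrt_nonneg _) 3)
      (mul_nonneg (Real.sqrt_nonneg _) (Real.sqrt_nonneg _)) (n := 2) (by norm_num)).mp ?_
    have h1 : ((√(Nm (fun z => F y z • b y))) ^ 3) ^ 2 = Nm (fun z => F y z • b y) ^ 3 := by
      rw [← pow_mul, show 3 * 2 = 2 * 3 by norm_num, pow_mul, Real.sq_sqrt (Nm_nonneg _)]
    rw [h1, Nm_cube, mul_pow, Real.sq_sqrt (by positivity), Real.sq_sqrt hc, Finset.mul_sum]
    refine Finset.sum_congr rfl fun z _ => ?_
    rw [norm_smul, mul_pow, Real.norm_eq_abs]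
    ring
  simp only [key]
  refine (Finset.sum_mul_sq_le_sq_mul_sq _ _ _).trans (le_of_eq ?_)
  congr 1
  · exact Finset.sum_congr rfl fun y _ => Real.sq_sqrt (by positivity)
  · exact Finset.sum_congr rfl fun y _ =>
      Real.sq_sqrt (Finset.sum_nonneg fun _ _ => by positivity)

lemma final_arith {X a1 a2 t1 t2 A B C D : ℝ} (h : X ≤ 8 * a1 ^ 2 * a2 ^ 2) (ha1 : 0 ≤ a1)
    (ha2 : 0 ≤ a2) (h1 : a1 ≤ 6 * t1) (h2 : a2 ≤ 6 * t2) (h3 : t1 ^ 2 ≤ B * C)
    (h4 : t2 ^ 2 ≤ A * D) : X ≤ 10368 * A * B * C * D := by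
  have hA2 : a1 ^ 2 ≤ 36 * t1 ^ 2 := by
    have : a1 ^ 2 ≤ (6 * t1) ^ 2 := pow_le_pow_left₀ ha1 h1 2
    nlinarith
  have hB2 : a2 ^ 2 ≤ 36 * t2 ^ 2 := by
    have : a2 ^ 2 ≤ (6 * t2) ^ 2 := pow_le_pow_left₀ ha2 h2 2
    nlinarith
  have h5 : a1 ^ 2 * a2 ^ 2 ≤ (36 * t1 ^ 2) * (36 * t2 ^ 2) :=
    mul_le_mul hA2 hB2 (sq_nonneg _) (by positivity)
  have h6 : t1 ^ 2 * t2 ^ 2 ≤ (B * C) * (A * D) :=
    mul_le_mul h3 h4 (sq_nonneg _) (le_trans (sq_nonneg _) h3)
  nlinarith

/-- The main bound, with `C^3 = 10368`, i.e. `C = 2 * 6^(4/3) < 22`. -/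
theorem factored_bound (a b : G m → V) (F₁ F₂ : G m → G m → ℝ) :
    (∑ i : Fin m, |L (fun x y => ⟪a x, b y⟫) F₁ F₂ i|) ^ 3
      ≤ 10368 * (∑ x, ‖a x‖ ^ 3) * (∑ y, ‖b y‖ ^ 3)
          * (∑ y, ∑ z, |F₁ y z| ^ 3) * (∑ z, ∑ x, |F₂ z x| ^ 3) := by
  have hsum : ∑ i : Fin m, |L (fun x y => ⟪a x, b y⟫) F₁ F₂ i|
      = ∑ k ∈ range m, |∑ z, ∑ y, ⟪(fun y z => F₁ y z • b y : G m → G m → V) y z,
          D k (fun y' => (fun x z => F₂ z x • a x : G m → G m → V) (y' + z) z) y⟫| := by
    rw [Finset.sum_range]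
    refine Finset.sum_congr rfl fun i _ => ?_
    rw [form_eq]
  rw [hsum]
  have hm2 := mixed_bound a (fun x z => F₂ z x)
  rw [show ∑ x, ∑ z, |F₂ z x| ^ 3 = ∑ z, ∑ x, |F₂ z x| ^ 3 from Finset.sum_comm] at hm2
  exact final_arith (core_bound (fun y z => F₁ y z • b y) (fun x z => F₂ z x • a x))
    (Finset.sum_nonneg fun y _ => pow_nonneg (Real.sqrt_nonneg _) 3)
    (Finset.sum_nonneg fun y _ => pow_nonneg (Real.sqrt_nonneg _) 3)
    (doob (fun y => Nm_nonneg _)) (doob (fun y => Nm_nonneg _))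
    (mixed_bound b F₁) hm2

end Vale.Agent.P075
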